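import Vale.Agent.P261.H399.Kill

/-!
# P261: cohomology of finitely generated equivariant modules over the Lubin-Tate ring

For every prime `p`, every height `n ≥ 2` and every finitely generated `E₀`-module `M` with
semilinear automorphisms over the elements of the Morava stabilizer group `G_n`, the invariants
`H^0(G_n; M)` are a finitely generated `ℤ_p`-module; if `M` is `p`-torsion-free, the
`p^N`-torsion of `H^1(G_n; M)` is finite for every `N`, and `H^1(G_n; M)` itself is finite
whenever an integer polynomial without the root `1` kills the action of some integer `b` of the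
centre of `G_n`.
-/

namespace Vale.Agent.Results.P261.EquivariantModules

open Vale.Agent.P217 Vale.Agent.P261

universe u

theorem result (p n : ℕ) [Fact p.Prime] (hn : 2 ≤ n) :
    Nonempty (ℤ_[p] →+* E0 p n) ∧
    (∃ Γ, IsHonda p n Γ) ∧ ∀ Γ, IsHonda p n Γ →
      (∃ F, IsUniversalDeformation p n Γ F ∧ HeightAdapted p n F) ∧
      ∀ F, IsUniversalDeformation p n Γ F → HeightAdapted p n F →
        -- the type `Elt F` is the extended Morava stabilizer group
        (∀ (σ : GaloisField p n ≃+* GaloisField p n) (γ : PowerSeries (GaloisField p n)),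
          IsIso (Γ.map (algebraMap (ZMod p) (GaloisField p n)))
            (Γ.map (algebraMap (ZMod p) (GaloisField p n))) γ →
          ∃! a : Elt F, (red p n).comp (a.φ : E0 p n →+* E0 p n) =
            (σ : GaloisField p n →+* GaloisField p n).comp (red p n) ∧ a.g.map (red p n) = γ) ∧
        (∀ a : Elt F, ∃ σ : GaloisField p n ≃+* GaloisField p n,
          (red p n).comp (a.φ : E0 p n →+* E0 p n) =
            (σ : GaloisField p n →+* GaloisField p n).comp (red p n) ∧
          IsIso (Γ.map (algebraMap (ZMod p) (GaloisField p n)))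
            (Γ.map (algebraMap (ZMod p) (GaloisField p n))) (a.g.map (red p n))) ∧
        (∀ a b : Elt F, ∃ ab : Elt F, IsMul a b ab) ∧
        ∀ (M : Type u) [AddCommGroup M] [Module (E0 p n) M] [Module.Finite (E0 p n) M]
          (T : Elt F → M ≃+ M), IsEquivariant T →
          -- the invariants are a finitely generated `ℤ_p`-module
          (∃ S : Finset M, (∀ s ∈ S, ∀ a : Elt F, T a s = s) ∧
            ∀ x : M, (∀ a : Elt F, T a x = x) →
              (∀ ι : ℤ_[p] →+* E0 p n, ∃ z : M → ℤ_[p], x = ∑ s ∈ S, ι (z s) • s) ∧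
              ∀ J : ℕ, ∃ (c : M → ℤ) (y : M),
                (∀ a : Elt F, T a y = y) ∧ x = ∑ s ∈ S, c s • s + (p : E0 p n) ^ J • y) ∧
          ((∀ m : M, (p : E0 p n) • m = 0 → m = 0) →
            -- the torsion of the first cohomology
            (∀ N : ℕ, ∃ C : Set (Elt F → M), C.Finite ∧
              (∀ c ∈ C, IsCrossedTo T c ∧ IsPrincipalTo T (fun a => (p : E0 p n) ^ N • c a)) ∧
              ∀ c : Elt F → M, IsCrossedTo T c →
                IsPrincipalTo T (fun a => (p : E0 p n) ^ N • c a) →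
                ∃ c' ∈ C, IsPrincipalTo T (fun a => c a - c' a)) ∧
            -- the first cohomology, when `1` is not a weight of the centre
            ((∀ a b ab : Elt F, IsMul a b ab → ∀ m, T ab m = T a (T b m)) →
              ∀ (b : ℕ) (z : Elt F), z.φ = RingEquiv.refl _ → z.g = multSeries F b →
              ∀ P : Polynomial ℤ, P.eval 1 ≠ 0 →
                Polynomial.aeval (A := AddMonoid.End M) (T z).toAddMonoidHom P = 0 →
                ∃ C : Set (Elt F → M), C.Finite ∧ (∀ c ∈ C, IsCrossedTo T c) ∧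
                  ∀ c : Elt F → M, IsCrossedTo T c →
                    ∃ c' ∈ C, IsPrincipalTo T (fun a => c a - c' a))) := by
  have hn1 : 1 ≤ n := by omega
  refine ⟨nonempty_iota, (LTC.exists_unique_honda (p := p) hn1).exists,
    fun Γ hΓ => ⟨LTC.exists_universal hn1 hΓ, ?_⟩⟩
  intro F hF hH
  have hF1 : F.IsComm := hF.comm
  refine ⟨?_, ?_, ?_, fun M _ _ _ T hT => ⟨?_, fun htf => ⟨fun N => h1_tors hF hH hΓ T hT hn htf N,
    fun hmul b z hzφ hzg P hP1 hP => h1_finite hF hH hΓ T hT hn htf hmul b z hzφ hzg P hP1 hP⟩⟩⟩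
  · intro σ γ hγ
    obtain ⟨⟨φ, g⟩, ⟨h1, h2, h3⟩, huniq⟩ := AC.exists_unique_pair hF σ γ hγ
    refine ⟨⟨φ, g, h2⟩, ⟨h1, h3⟩, ?_⟩
    rintro ⟨φ', g', h2'⟩ ⟨h1', h3'⟩
    have := huniq (φ', g') ⟨h1', h2', h3'⟩
    simp only [Prod.mk.injEq] at this
    obtain ⟨rfl, rfl⟩ := this
    rfl
  · intro a
    obtain ⟨σ, hσ, -⟩ := AC.exists_unique_reduction hF a.φ a.g a.iso
    exact ⟨σ, hσ⟩
  · intro a b
    refine ⟨⟨b.φ.trans a.φ, PowerSeries.subst a.g
      (PowerSeries.map (a.φ : E0 p n →+* E0 p n) b.g), ?_⟩, fun x => rfl, rfl⟩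
    have h := a.iso.compC (b.iso.mapC (a.φ : E0 p n →+* E0 p n))
    rw [C0.FG_map_map] at h
    exact h
  · obtain ⟨S, hS, hgen⟩ := inv_fg hF hH hΓ T hT hn
    refine ⟨S, hS, fun x hx => ⟨fun ι => exists_padic ι S x fun J => ?_, hgen x hx⟩⟩
    obtain ⟨c, y, -, h⟩ := hgen x hx J
    exact ⟨c, y, h⟩

end Vale.Agent.Results.P261.EquivariantModules
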