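import Vale.Agent.P261.H399.InvH

/-!
# P261: the groups `H^0(G_n; E_t/I_h)`, `H^0(G_n; E_t)` and `H^1(G_n; E_t)`, at every height

For every prime `p` and every height `n ≥ 2` the invariants of `E_t/I_h`, the invariants of `E_t`
and (for `t ≠ 0`) the first cohomology of the extended Morava stabilizer group `G_n` with
coefficients in `E_t` are determined; the latter is a finite cyclic group.
-/

namespace Vale.Agent.Results.P261.FirstCohomology

open Vale.Agent.P217 Vale.Agent.P261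

theorem result (p n : ℕ) [Fact p.Prime] (hn : 2 ≤ n) :
    (∃ Γ, IsHonda p n Γ) ∧ ∀ Γ, IsHonda p n Γ →
      (∃ F, IsUniversalDeformation p n Γ F ∧ HeightAdapted p n F) ∧
      ∀ F, IsUniversalDeformation p n Γ F → HeightAdapted p n F →
        -- the type `Elt F` is the extended Morava stabilizer group
        (∀ (σ : GaloisField p n ≃+* GaloisField p n) (γ : PowerSeries (GaloisField p n)),
          IsIso (Γ.map (algebraMap (ZMod p) (GaloisField p n)))
            (Γ.map (algebraMap (ZMod p) (GaloisField p n))) γ →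
          ∃! a : Elt F, (red p n).comp (a.φ : E0 p n →+* E0 p n) =
            (σ : GaloisField p n →+* GaloisField p n).comp (red p n) ∧ a.g.map (red p n) = γ) ∧
        (∀ a : Elt F, ∃ σ : GaloisField p n ≃+* GaloisField p n,
          (red p n).comp (a.φ : E0 p n →+* E0 p n) =
            (σ : GaloisField p n →+* GaloisField p n).comp (red p n) ∧
          IsIso (Γ.map (algebraMap (ZMod p) (GaloisField p n)))
            (Γ.map (algebraMap (ZMod p) (GaloisField p n))) (a.g.map (red p n))) ∧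
        (∀ a b : Elt F, ∃ ab : Elt F, IsMul a b ab) ∧
        -- invariants modulo `I_h`
        (∀ h : ℕ, 1 ≤ h → h < n →
          (∀ m : ℕ, vH F h ^ m ∉ heightIdeal p n h) ∧
          (∀ (m : ℕ) (x : E0 p n),
            (∀ a : Elt F, act (m * ((p : ℤ) ^ h - 1)) a x - x ∈ heightIdeal p n h) ↔
              ∃ c : ℤ, x - c * vH F h ^ m ∈ heightIdeal p n h) ∧
          (∀ k : ℤ, (∀ m : ℕ, k ≠ m * ((p : ℤ) ^ h - 1)) → ∀ x : E0 p n,
            (∀ a : Elt F, act k a x - x ∈ heightIdeal p n h) → x ∈ heightIdeal p n h)) ∧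
        -- invariants
        (∀ k : ℤ, k ≠ 0 → ∀ x : E0 p n, (∀ a : Elt F, act k a x = x) → x = 0) ∧
        (∀ x : E0 p n, (∀ a : Elt F, act 0 a x = x) →
          ∀ N : ℕ, ∃ c : ℤ, (p : E0 p n) ^ N ∣ x - c) ∧
        -- first cohomology
        (∀ k : ℤ, (∀ m : ℕ, k ≠ m * ((p : ℤ) - 1)) → ∀ c : Elt F → E0 p n,
          IsCrossed k c → IsPrincipal k c) ∧
        (∀ m : ℕ, 1 ≤ m → ∃ (e : ℕ) (c₁ : Elt F → E0 p n),
          IsCrossed (m * ((p : ℤ) - 1)) c₁ ∧
          (∀ c : Elt F → E0 p n, IsCrossed (m * ((p : ℤ) - 1)) c →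
            ∃ j : ℤ, IsPrincipal (m * ((p : ℤ) - 1)) (fun a => c a - (j : E0 p n) * c₁ a)) ∧
          (∀ j : ℤ, IsPrincipal (m * ((p : ℤ) - 1)) (fun a => (j : E0 p n) * c₁ a) ↔
            (p : ℤ) ^ e ∣ j) ∧
          padicValNat p m + 1 ≤ e ∧
          (∀ b : ℕ, Nat.Coprime b p → (p : ℤ) ^ e ∣ (b : ℤ) ^ (m * (p - 1)) - 1) ∧
          (Odd p → e = padicValNat p m + 1)) ∧
        (∀ (c : Elt F → E0 p n) (d : ℤ), d ≠ 0 →
          IsPrincipal 0 (fun a => (d : E0 p n) * c a) → IsPrincipal 0 c) := by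
  have hn1 : 1 ≤ n := by omega
  have hp : p.Prime := Fact.out
  refine ⟨(LTC.exists_unique_honda (p := p) hn1).exists, fun Γ hΓ => ⟨LTC.exists_universal hn1 hΓ, ?_⟩⟩
  intro F hF hH
  have hF1 : F.IsComm := hF.comm
  refine ⟨?_, ?_, ?_, ?_, fun k hk x hx => h0_zero hk hx,
    fun x hx N => h0_weight_zero hF hH hΓ hn N hx, ?_, fun m hm => h1_cyc hF hH hΓ hn hm, ?_⟩
  · intro σ γ hγ
    obtain ⟨⟨φ, g⟩, ⟨h1, h2, h3⟩, huniq⟩ := AC.exists_unique_pair hF σ γ hγ
    refine ⟨⟨φ, g, h2⟩, ⟨h1, h3⟩, ?_⟩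
    rintro ⟨φ', g', h2'⟩ ⟨h1', h3'⟩
    have := huniq (φ', g') ⟨h1', h2', h3'⟩
    simp only [Prod.mk.injEq] at this
    obtain ⟨rfl, rfl⟩ := this
    rfl
  · intro a
    obtain ⟨σ, hσ, -⟩ := AC.exists_unique_reduction hF a.φ a.g a.iso
    exact ⟨σ, hσ⟩
  · intro a b
    refine ⟨⟨b.φ.trans a.φ, PowerSeries.subst a.g
      (PowerSeries.map (a.φ : E0 p n →+* E0 p n) b.g), ?_⟩, fun x => rfl, rfl⟩
    have h := a.iso.compC (b.iso.mapC (a.φ : E0 p n →+* E0 p n))
    rw [C0.FG_map_map] at h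
    exact h
  · intro h hh hhn
    have hph : (p : ℤ) ^ h - 1 ≠ 0 := by
      have : 1 < p ^ h := Nat.one_lt_pow (by omega) hp.one_lt
      have : (1 : ℤ) < (p : ℤ) ^ h := by exact_mod_cast this
      omega
    refine ⟨vH_pow_ne hF hH hΓ hh hhn, fun m x => ⟨fun hx => ?_, ?_⟩, fun k hk x hx => ?_⟩
    · by_cases h0 : x ∈ heightIdeal p n h
      · exact ⟨0, by simpa using h0⟩
      · obtain ⟨m', c, h1, h2⟩ := inv_formH hF hH hΓ hn hh hhn hx h0
        have hmm : m' = m := by exact_mod_cast (mul_right_cancel₀ hph h1).symm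
        exact ⟨c, hmm ▸ h2⟩
    · rintro ⟨c, hc⟩ a
      obtain ⟨z, hz⟩ : ∃ z, z = x - c * vH F h ^ m := ⟨_, rfl⟩
      rw [← hz] at hc
      have h1 : x = c * vH F h ^ m + z := by rw [hz]; ring
      have h2 : act (m * ((p : ℤ) ^ h - 1)) a (vH F h ^ m) - vH F h ^ m ∈ heightIdeal p n h := by
        have h3 : act (m * ((p : ℤ) ^ h - 1)) a (vH F h ^ m) =
            (act ((p : ℤ) ^ h - 1) a (vH F h)) ^ m := by
          rw [act_mul, act_mul, map_pow, mul_pow]
          congr 1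
          rw [← Units.val_pow_eq_pow_val, ← zpow_natCast, ← zpow_mul, mul_comm (m : ℤ)]
        rw [h3]
        exact Ideal.mem_of_dvd _ (sub_dvd_pow_sub_pow _ _ m) (vH_inv hF hH hh hhn a)
      rw [h1, act_add, act_int]
      have h3 : (c : E0 p n) * act (m * ((p : ℤ) ^ h - 1)) a (vH F h ^ m) +
          act (m * ((p : ℤ) ^ h - 1)) a z - (c * vH F h ^ m + z) =
          (c : E0 p n) * (act (m * ((p : ℤ) ^ h - 1)) a (vH F h ^ m) - vH F h ^ m) +
            (act (m * ((p : ℤ) ^ h - 1)) a z - z) := by ring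
      rw [h3]
      exact Ideal.add_mem _ (Ideal.mul_mem_left _ _ h2)
        (Ideal.sub_mem _ (act_mem_height hH hhn.le _ a hc) hc)
    · by_contra h0
      obtain ⟨m', c, h1, -⟩ := inv_formH hF hH hΓ hn hh hhn hx h0
      exact hk m' h1
  · intro k hk c hc
    have hk0 : k ≠ 0 := by
      have := hk 0
      simpa using this
    obtain ⟨N, hN⟩ := exists_kill hk0 hc
    exact h1_zero_aux hF hH hΓ hn hk N hN
  · intro c d hd hc
    obtain ⟨s, r, hr, rfl⟩ := int_decomp (p := p) hd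
    have h1 := principal_div hr hc
    push_cast at h1
    exact h1_tf_aux hF hH hΓ hn s h1

end Vale.Agent.Results.P261.FirstCohomology
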